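import Vale.Agent.P198.Base
import Vale.Agent.P187.W.Cay

/-! # P198 O/Four: the word norm of the Cayley graph and the four point inequality -/

namespace Vale.Agent.P198
open Set SimpleGraph
open Vale.Agent.P187
variable {G : Type} [Group G] {ν : G → ℕ}

/-- Twice the Gromov product based at `1`. -/
def tp (ν : G → ℕ) (x y : G) : ℕ := ν x + ν y - ν (x⁻¹ * y)

theorem tp_tri (h : IsWN ν) (x y : G) :
    ν (x⁻¹ * y) ≤ ν x + ν y ∧ ν x ≤ ν y + ν (x⁻¹ * y) ∧ ν y ≤ ν x + ν (x⁻¹ * y) := by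
  have h1 := h.mul x⁻¹ y
  have h2 := h.mul x (x⁻¹ * y)
  have h3 := h.mul y (y⁻¹ * x)
  rw [h.inv] at h1
  rw [mul_inv_cancel_left] at h2 h3
  rw [h.symm y x] at h3
  exact ⟨h1, h3, h2⟩

theorem tp_comm (h : IsWN ν) (x y : G) : tp ν x y = tp ν y x := by
  rw [tp, tp, h.symm, add_comm]

theorem tp_self (h : IsWN ν) (x : G) : tp ν x x = 2 * ν x := by
  rw [tp, h.self]; omega

theorem tp_le (h : IsWN ν) (x y : G) : tp ν x y ≤ 2 * ν x := by
  have := tp_tri h x y
  rw [tp]; omega

theorem tp_coc (h : IsWN ν) (g x y : G) :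
    tp ν (g * x) (g * y) + tp ν g⁻¹ x + tp ν g⁻¹ y = 2 * ν g + tp ν x y := by
  have h1 := tp_tri h x y
  have h2 := tp_tri h g⁻¹ x
  have h3 := tp_tri h g⁻¹ y
  have h4 := tp_tri h (g * x) (g * y)
  have e : (g * x)⁻¹ * (g * y) = x⁻¹ * y := by group
  simp only [tp, inv_inv, h.inv, e] at *
  omega

theorem exists_wn_cay (S : Finset G) (hS : Subgroup.closure (S : Set G) = ⊤) :
    ∃ ν : G → ℕ, IsWN ν ∧ mulCayley (S : Set G) = mulCayley {g | ν g = 1} := by
  obtain ⟨ν, h, h1, h2⟩ := exists_wn (Subtype.val : S → G) (by simpa using hS)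
  refine ⟨ν, h, ?_⟩
  ext x y
  rw [adj_cay h, mulCayley_adj]
  constructor
  · rintro ⟨hne, hm⟩
    have h0 : ν (x⁻¹ * y) ≠ 0 := fun e => hne (h.eq_of e)
    rcases hm with hm | hm
    · have := h2 ⟨_, hm⟩
      simp only at this
      omega
    · have := h2 ⟨_, hm⟩
      simp only at this
      rw [h.symm] at this
      omega
  · intro e
    refine ⟨fun hxy => ?_, ?_⟩
    · rw [hxy, h.self] at e
      omega
    · obtain ⟨⟨s, _ | _⟩, hl⟩ := h1 _ e
      · refine Or.inr ?_
        have : y⁻¹ * x = s := by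
          rw [← inv_inj, mul_inv_rev, inv_inv, hl]
          simp [gen]
        rw [this]
        exact s.2
      · refine Or.inl ?_
        rw [hl]
        simp [gen]

/-- Geodesics from `1` fellow travel up to the Gromov product. -/
theorem fellow_four (h : IsWN ν) {δ : ℕ} (ht : ThinTriangles (mulCayley {g | ν g = 1}) δ) {x y : G}
    (p : (mulCayley {g | ν g = 1}).Walk 1 x) (q : (mulCayley {g | ν g = 1}).Walk 1 y)
    (hp : p.length = ν x) (hq : q.length = ν y) {k : ℕ} (hk : 2 * k + 2 * δ < tp ν x y) :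
    ν ((p.getVert k)⁻¹ * q.getVert k) ≤ 2 * δ := by
  obtain ⟨s, hs⟩ := walk_cay h _ x y rfl
  have hp' : p.length = (mulCayley {g | ν g = 1}).dist 1 x := by rw [dist_cay h, hp]; simp
  have hq' : q.length = (mulCayley {g | ν g = 1}).dist 1 y := by rw [dist_cay h, hq]; simp
  have hs' : s.length = (mulCayley {g | ν g = 1}).dist x y := by rw [dist_cay h, hs]
  have gp := geo_cay h p hp'
  have gq := geo_cay h q hq'
  have gs := geo_cay h s hs'
  have t1 := tp_le h x y
  have t2 := tp_le h y x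
  rw [tp_comm h y x] at t2
  have n1 := gp 0 k (Nat.zero_le _) (by omega)
  rw [p.getVert_zero, inv_one, one_mul] at n1
  obtain ⟨v, hv, hd⟩ := ht 1 x y p s q.reverse hp' hs'
    (by rw [Walk.length_reverse, hq', dist_comm]) _ (p.getVert_mem_support k)
  rw [dist_cay h] at hd
  have a1 := tp_tri h (p.getVert k) v
  rcases hv with hv | hv
  · obtain ⟨j, rfl, hj⟩ := Walk.mem_support_iff_exists_getVert.1 hv
    have b1 := gs 0 j (Nat.zero_le _) hj
    have b2 := gs j _ hj le_rfl
    rw [s.getVert_zero] at b1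
    rw [s.getVert_length] at b2
    have b3 := tp_tri h x (s.getVert j)
    have b4 := tp_tri h (s.getVert j) y
    rw [tp] at hk
    omega
  · rw [Walk.support_reverse, List.mem_reverse] at hv
    obtain ⟨j, rfl, hj⟩ := Walk.mem_support_iff_exists_getVert.1 hv
    have b1 := gq 0 j (Nat.zero_le _) hj
    rw [q.getVert_zero, inv_one, one_mul] at b1
    have b2 := gq.dist h hj (show k ≤ q.length by omega)
    have b3 := h.tri (p.getVert k) (q.getVert j) (q.getVert k)
    omega

theorem four_of_thin (h : IsWN ν) {δ : ℕ} (ht : ThinTriangles (mulCayley {g | ν g = 1}) δ)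
    (x y z : G) : min (tp ν x y) (tp ν y z) ≤ tp ν x z + (6 * δ + 2) := by
  by_cases hm : min (tp ν x y) (tp ν y z) ≤ 2 * δ + 2
  · omega
  obtain ⟨k, hk1, hk2⟩ : ∃ k, 2 * k + 2 * δ < min (tp ν x y) (tp ν y z) ∧
      min (tp ν x y) (tp ν y z) ≤ 2 * k + 2 * δ + 2 :=
    ⟨(min (tp ν x y) (tp ν y z) - 2 * δ - 1) / 2, by omega, by omega⟩
  obtain ⟨p, hp⟩ := walk_cay h (ν x) 1 x (by simp)
  obtain ⟨q, hq⟩ := walk_cay h (ν y) 1 y (by simp)
  obtain ⟨r, hr⟩ := walk_cay h (ν z) 1 z (by simp)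
  have f1 := fellow_four h ht p q hp hq (k := k) (by omega)
  have f2 := fellow_four h ht q r hq hr (k := k) (by omega)
  have gp := geo_cay h p (by rw [dist_cay h, hp]; simp)
  have gr := geo_cay h r (by rw [dist_cay h, hr]; simp)
  have t1 := tp_le h x y
  have t2 := tp_le h z y
  rw [tp_comm h z y] at t2
  have b1 := gp k _ (by omega) le_rfl
  have b2 := gr k _ (by omega) le_rfl
  rw [Walk.getVert_length] at b1 b2
  have c1 := h.tri x (p.getVert k) z
  have c2 := h.tri (p.getVert k) (q.getVert k) z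
  have c3 := h.tri (q.getVert k) (r.getVert k) z
  have c4 := h.symm x (p.getVert k)
  have : 2 * k ≤ tp ν x z + 4 * δ := by
    rw [tp]; omega
  omega

end Vale.Agent.P198
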