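import Vale.Agent.P198.O.Four

/-! # P198 O/Ker: the kernel `W a a' = lim b ^ (2 (a n | a' n))` along an ultrafilter -/

namespace Vale.Agent.P198
open Set Filter Topology
open Vale.Agent.P187

/-- A word norm with the four point inequality and a visual parameter. -/
structure OD (G : Type) [Group G] where
  ν : G → ℕ
  c : ℕ
  b : ℝ
  wn : IsWN ν
  four : ∀ x y z, min (tp ν x y) (tp ν y z) ≤ tp ν x z + c
  c1 : 1 ≤ c
  b0 : 0 < b
  b1 : b < 1
  hb : 1 ≤ 2 * (b ^ c) ^ 2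

theorem exists_od {G : Type} [Group G] {ν : G → ℕ} (h : IsWN ν) {c : ℕ} (c1 : 1 ≤ c)
    (four : ∀ x y z, min (tp ν x y) (tp ν y z) ≤ tp ν x z + c) : ∃ D : OD G, D.ν = ν := by
  have t : Tendsto (fun b : ℝ => 2 * (b ^ c) ^ 2) (𝓝[<] 1) (𝓝 2) := by
    have : Continuous fun b : ℝ => 2 * (b ^ c) ^ 2 := by fun_prop
    simpa using (this.tendsto 1).mono_left nhdsWithin_le_nhds
  obtain ⟨b, ⟨hb, h0⟩, h1⟩ := (((t.eventually (lt_mem_nhds (show (1 : ℝ) < 2 by norm_num))).and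
    (nhdsWithin_le_nhds (lt_mem_nhds (show (0 : ℝ) < 1 by norm_num)))).and
      self_mem_nhdsWithin).exists
  exact ⟨⟨ν, c, b, h, four, c1, h0, h1, hb.le⟩, rfl⟩

/-- The ultrafilter used for all limits. -/
noncomputable abbrev UF : Filter ℕ := hyperfilter ℕ

theorem UF_le : UF ≤ atTop := Nat.hyperfilter_le_atTop

namespace OD
variable {G : Type} [Group G] (D : OD G)

/-- The kernel on the group. -/
def w (x y : G) : ℝ := D.b ^ tp D.ν x y

/-- The kernel on sequences. -/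
noncomputable def W (a a' : ℕ → G) : ℝ := limUnder UF fun n => D.w (a n) (a' n)

theorem K_pos : 0 < D.b ^ D.c := pow_pos D.b0 _

theorem K_le : D.b ^ D.c ≤ D.b := by
  simpa using pow_le_pow_of_le_one D.b0.le D.b1.le D.c1

theorem K_half : 1 ≤ 2 * D.b ^ D.c := by
  have h1 := D.hb
  have h2 := D.K_pos
  have h3 := D.K_le.trans D.b1.le
  nlinarith

theorem w_pos (x y : G) : 0 < D.w x y := pow_pos D.b0 _

theorem w_le_one (x y : G) : D.w x y ≤ 1 := pow_le_one₀ D.b0.le D.b1.le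

theorem w_le {x y : G} {k : ℕ} (h : k ≤ tp D.ν x y) : D.w x y ≤ D.b ^ k :=
  pow_le_pow_of_le_one D.b0.le D.b1.le h

theorem le_w {x y : G} {k : ℕ} (h : tp D.ν x y ≤ k) : D.b ^ k ≤ D.w x y :=
  pow_le_pow_of_le_one D.b0.le D.b1.le h

theorem w_four (x y z : G) : D.b ^ D.c * D.w x z ≤ max (D.w x y) (D.w y z) := by
  have h := D.four x y z
  rw [w, ← pow_add, add_comm]
  rcases min_le_iff.1 h with h | h
  · exact le_max_of_le_left (pow_le_pow_of_le_one D.b0.le D.b1.le h)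
  · exact le_max_of_le_right (pow_le_pow_of_le_one D.b0.le D.b1.le h)

theorem w_coc (g x y : G) :
    D.w (g * x) (g * y) * (D.w g⁻¹ x * D.w g⁻¹ y) = (D.b ^ 2) ^ D.ν g * D.w x y := by
  simp only [w, ← pow_add, ← pow_mul, ← add_assoc, tp_coc D.wn]

theorem tendsto_W (a a' : ℕ → G) : Tendsto (fun n => D.w (a n) (a' n)) UF (𝓝 (D.W a a')) := by
  obtain ⟨x, -, hx⟩ := (isCompact_Icc (a := (0 : ℝ)) (b := 1)).ultrafilter_le_nhds'
    ((hyperfilter ℕ).map fun n => D.w (a n) (a' n))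
    (Filter.mem_map.2 (univ_mem' fun n => ⟨(D.w_pos _ _).le, D.w_le_one _ _⟩))
  exact tendsto_nhds_limUnder ⟨x, hx⟩

theorem W_nonneg (a a' : ℕ → G) : 0 ≤ D.W a a' :=
  ge_of_tendsto' (D.tendsto_W a a') fun _ => (D.w_pos _ _).le

theorem W_comm (a a' : ℕ → G) : D.W a a' = D.W a' a := by
  simp only [W, w, tp_comm D.wn (a _)]

theorem W_const (x y : G) : D.W (fun _ => x) (fun _ => y) = D.w x y :=
  tendsto_nhds_unique (D.tendsto_W _ _) tendsto_const_nhds

theorem W_le {a a' : ℕ → G} {k : ℕ} (h : ∀ᶠ n in UF, k ≤ tp D.ν (a n) (a' n)) :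
    D.W a a' ≤ D.b ^ k := le_of_tendsto (D.tendsto_W a a') (h.mono fun _ hn => D.w_le hn)

theorem le_W (x : G) (a : ℕ → G) : (D.b ^ 2) ^ D.ν x ≤ D.W (fun _ => x) a := by
  rw [← pow_mul]
  exact ge_of_tendsto' (D.tendsto_W _ a) fun n => D.le_w (tp_le D.wn _ _)

theorem W_zero {a a' : ℕ → G} (h : ∀ k, ∀ᶠ n in UF, k ≤ tp D.ν (a n) (a' n)) : D.W a a' = 0 :=
  le_antisymm (ge_of_tendsto' (tendsto_pow_atTop_nhds_zero_of_lt_one D.b0.le D.b1)
    fun k => D.W_le (h k)) (D.W_nonneg _ _)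

theorem of_W_zero {a a' : ℕ → G} (h : D.W a a' = 0) (k : ℕ) :
    ∀ᶠ n in UF, k ≤ tp D.ν (a n) (a' n) := by
  have t := D.tendsto_W a a'
  rw [h] at t
  filter_upwards [t.eventually (gt_mem_nhds (pow_pos D.b0 k))] with n hn
  by_contra hk
  exact absurd (D.le_w (not_le.1 hk).le) (not_le.2 hn)

theorem W_four (a a' a'' : ℕ → G) : D.b ^ D.c * D.W a a'' ≤ max (D.W a a') (D.W a' a'') :=
  le_of_tendsto_of_tendsto' ((D.tendsto_W a a'').const_mul _)
    ((D.tendsto_W a a').max (D.tendsto_W a' a'')) fun _ => D.w_four _ _ _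

theorem W_five (a₁ a₂ a₃ a₄ : ℕ → G) :
    D.W a₁ a₄ ≤ 2 * max (D.W a₁ a₂) (max (D.W a₂ a₃) (D.W a₃ a₄)) := by
  have h1 := D.W_four a₁ a₂ a₄
  have h2 := D.W_four a₂ a₃ a₄
  have k0 := D.K_pos
  have k1 := D.K_le.trans D.b1.le
  have h3 : D.b ^ D.c * max (D.W a₁ a₂) (D.W a₂ a₄)
      ≤ max (D.W a₁ a₂) (max (D.W a₂ a₃) (D.W a₃ a₄)) := by
    rw [mul_max_of_nonneg _ _ k0.le]
    exact max_le_max (mul_le_of_le_one_left (D.W_nonneg _ _) k1) h2
  have h4 := mul_le_mul_of_nonneg_left h1 k0.le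
  have h5 := mul_le_mul_of_nonneg_right D.hb (D.W_nonneg a₁ a₄)
  nlinarith

theorem W_coc (g : G) (a a' : ℕ → G) :
    D.W (fun n => g * a n) (fun n => g * a' n)
      * (D.W (fun _ => g⁻¹) a * D.W (fun _ => g⁻¹) a') = (D.b ^ 2) ^ D.ν g * D.W a a' := by
  refine tendsto_nhds_unique ((D.tendsto_W _ _).mul ((D.tendsto_W _ _).mul (D.tendsto_W _ _))) ?_
  simp only [D.w_coc]
  exact (D.tendsto_W a a').const_mul _

theorem W_smul_le (g : G) (a a' : ℕ → G) :
    (D.b ^ 2) ^ D.ν g * D.W (fun n => g * a n) (fun n => g * a' n) ≤ D.W a a' := by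
  have h := D.W_coc g a a'
  have h1 := D.le_W g⁻¹ a
  have h2 := D.le_W g⁻¹ a'
  rw [D.wn.inv] at h1 h2
  have q0 : 0 < (D.b ^ 2) ^ D.ν g := pow_pos (pow_pos D.b0 2) _
  have h3 := mul_le_mul_of_nonneg_left (mul_le_mul h1 h2 q0.le (q0.le.trans h1))
    (D.W_nonneg (fun n => g * a n) fun n => g * a' n)
  rw [h] at h3
  refine le_of_mul_le_mul_left ?_ q0
  linarith

/-- Sequences that go to infinity along the ultrafilter. -/
@[ext]
structure A : Type where
  val : ℕ → G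
  prop : D.W val val = 0

/-- The pre-distance. -/
noncomputable def pre (a a' : D.A) : NNReal := NNReal.mk (D.W a.1 a'.1) (D.W_nonneg _ _)

theorem pre_coe (a a' : D.A) : (D.pre a a' : ℝ) = D.W a.1 a'.1 := rfl

noncomputable instance : PseudoMetricSpace D.A :=
  PseudoMetricSpace.ofPreNNDist D.pre (fun a => NNReal.eq a.2) fun _ _ => NNReal.eq (D.W_comm _ _)

theorem dist_le (a a' : D.A) : dist a a' ≤ D.W a.1 a'.1 :=
  PseudoMetricSpace.dist_ofPreNNDist_le _ _ _ a a'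

theorem le_dist (a a' : D.A) : D.W a.1 a'.1 ≤ 2 * dist a a' :=
  PseudoMetricSpace.le_two_mul_dist_ofPreNNDist D.pre _ _
    (fun a₁ a₂ a₃ a₄ => by
      rw [← NNReal.coe_le_coe]
      simpa [pre_coe] using D.W_five a₁.1 a₂.1 a₃.1 a₄.1) a a'

instance : MulAction G D.A where
  smul g a := ⟨fun n => g * a.1 n, by
    have h := D.W_smul_le g a.1 a.1
    rw [a.2] at h
    exact le_antisymm (nonpos_of_mul_nonpos_right h (pow_pos (pow_pos D.b0 2) _) )
      (D.W_nonneg _ _)⟩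
  one_smul a := A.ext (funext fun n => one_mul _)
  mul_smul g g' a := A.ext (funext fun n => mul_assoc _ _ _)

theorem smul_val (g : G) (a : D.A) : (g • a).1 = fun n => g * a.1 n := rfl

instance : ContinuousConstSMul G D.A where
  continuous_const_smul g := by
    have q0 : 0 < (D.b ^ 2) ^ D.ν g := pow_pos (pow_pos D.b0 2) _
    refine (LipschitzWith.of_dist_le' (K := 2 / (D.b ^ 2) ^ D.ν g) fun a a' => ?_).continuous
    have h1 := D.W_smul_le g a.1 a'.1
    have h2 := mul_le_mul_of_nonneg_left (D.dist_le (g • a) (g • a')) q0.le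
    have h3 := D.le_dist a a'
    rw [div_mul_eq_mul_div, le_div_iff₀' q0]
    rw [smul_val, smul_val] at h2
    linarith

end OD

end Vale.Agent.P198
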