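import Vale.Agent.P198.O.Ray

/-! # P198 block O: the boundary with a visual metric (interface) -/

namespace Vale.Agent.P198
open Set Metric Filter Topology MeasureTheory

theorem Cmp.symm_o {C s t : ℝ} (h : Cmp C s t) : Cmp C t s := ⟨h.2, h.1⟩

theorem Cmp.trans_o {C C' s t u : ℝ} (h : Cmp C s t) (h' : Cmp C' t u) (hC : 0 ≤ C)
    (hC' : 0 ≤ C') : Cmp (C * C') s u :=
  ⟨h.1.trans ((mul_le_mul_of_nonneg_left h'.1 hC).trans_eq (by ring)),
    h'.2.trans ((mul_le_mul_of_nonneg_left h.2 hC').trans_eq (by ring))⟩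

theorem Cmp.mul_o {C C' s t s' t' : ℝ} (h : Cmp C s t) (h' : Cmp C' s' t') (hC : 0 ≤ C)
    (hs : 0 ≤ s) (ht : 0 ≤ t) (hs' : 0 ≤ s') (ht' : 0 ≤ t') : Cmp (C * C') (s * s') (t * t') :=
  ⟨(mul_le_mul h.1 h'.1 hs' (mul_nonneg hC ht)).trans_eq (by ring),
    (mul_le_mul h.2 h'.2 ht' (mul_nonneg hC hs)).trans_eq (by ring)⟩

theorem Cmp.left_o {C s t u : ℝ} (h : Cmp C s t) (hu : 0 ≤ u) : Cmp C (u * s) (u * t) :=
  ⟨(mul_le_mul_of_nonneg_left h.1 hu).trans_eq (by ring),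
    (mul_le_mul_of_nonneg_left h.2 hu).trans_eq (by ring)⟩

theorem Cmp.mono_o {C C' s t : ℝ} (h : Cmp C s t) (hC : C ≤ C') (hs : 0 ≤ s) (ht : 0 ≤ t) :
    Cmp C' s t :=
  ⟨h.1.trans (mul_le_mul_of_nonneg_right hC ht), h.2.trans (mul_le_mul_of_nonneg_right hC hs)⟩

namespace OD
open SeparationQuotient
variable {G : Type} [Group G] (D : OD G) {p : G → D.A}

theorem dist_cmp (a a' : D.A) :
    Cmp 2 (dist (SeparationQuotient.mk a) (SeparationQuotient.mk a')) (D.W a.1 a'.1) := by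
  rw [dist_mk]
  have h1 := D.dist_le a a'
  have h2 := D.W_nonneg a.1 a'.1
  exact ⟨by linarith, D.le_dist a a'⟩

theorem gp_cmp (x y : G) : Cmp 2 ((D.b ^ 2) ^ gp D.ν x y) (D.w x y) := by
  have e : gp D.ν x y = tp D.ν x y / 2 := rfl
  rw [← pow_mul, e]
  have h1 := D.le_w (x := x) (y := y) (k := 2 * (tp D.ν x y / 2) + 1) (by omega)
  have h2 := D.w_le (x := x) (y := y) (k := 2 * (tp D.ν x y / 2)) (by omega)
  have h3 := pow_pos D.b0 (2 * (tp D.ν x y / 2))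
  have h4 : 1 ≤ 2 * D.b := by linarith [D.K_half, D.K_le]
  rw [pow_succ] at h1
  exact ⟨by nlinarith, by linarith⟩

theorem W_pi (hp : ∀ y, D.b ^ D.c * D.W (fun _ => y) (p y).1 ≤ (D.b ^ 2) ^ D.ν y) (y : G) :
    D.W (fun _ => y) (p y).1 ≤ 2 * (D.b ^ 2) ^ D.ν y := by
  have h1 := mul_le_mul_of_nonneg_right D.K_half (D.W_nonneg (fun _ => y) (p y).1)
  linarith [hp y]

theorem P_nonneg (π : G → D.Z) (x : G) (ξ : D.Z) : 0 ≤ Pp D.ν π (D.b ^ 2) x ξ :=
  le_max_of_le_left dist_nonneg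

theorem P_cmp (hp : ∀ y, D.b ^ D.c * D.W (fun _ => y) (p y).1 ≤ (D.b ^ 2) ^ D.ν y) (x : G)
    (a : D.A) : Cmp 4 (Pp D.ν (fun y => SeparationQuotient.mk (p y)) (D.b ^ 2) x
      (SeparationQuotient.mk a)) (D.W (fun _ => x) a.1) := by
  have k0 := D.K_pos
  have k1 := D.K_le.trans D.b1.le
  have w0 := D.W_nonneg (fun _ => x) a.1
  have q1 := D.le_W x a.1
  rw [Pp, dist_mk]
  constructor
  · refine max_le ?_ (by linarith)
    have h1 := mul_le_mul_of_nonneg_left (D.W_four (p x).1 (fun _ => x) a.1) k0.le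
    rw [mul_max_of_nonneg _ _ k0.le, D.W_comm (p x).1 fun _ => x] at h1
    have h2 := h1.trans (max_le ((hp x).trans q1) (mul_le_of_le_one_left w0 k1))
    have h3 := mul_le_mul_of_nonneg_right D.hb (D.W_nonneg (p x).1 a.1)
    have h4 := D.dist_le (p x) a
    nlinarith
  · have h1 := le_max_left (dist (p x) a) ((D.b ^ 2) ^ D.ν x)
    have h2 := le_max_right (dist (p x) a) ((D.b ^ 2) ^ D.ν x)
    have h3 := (D.W_four (fun _ => x) (p x).1 a.1).trans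
      (max_le (c := 2 * max (dist (p x) a) ((D.b ^ 2) ^ D.ν x)) (by linarith [D.W_pi hp x])
        (by linarith [D.le_dist (p x) a]))
    have h4 := mul_le_mul_of_nonneg_right D.K_half w0
    linarith

theorem m3_cmp (hp : ∀ y, D.b ^ D.c * D.W (fun _ => y) (p y).1 ≤ (D.b ^ 2) ^ D.ν y) (x y : G) :
    Cmp 4 (D.w x y) (max (dist (SeparationQuotient.mk (p x)) (SeparationQuotient.mk (p y)))
      (max ((D.b ^ 2) ^ D.ν x) ((D.b ^ 2) ^ D.ν y))) := by
  have h1 := D.W_pi hp x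
  have h2 := D.W_pi hp y
  have h3 := D.le_W x fun _ => y
  have h4 := D.le_W y fun _ => x
  rw [D.W_comm] at h4
  have w0 := D.W_nonneg (fun _ => x) fun _ => y
  rw [← D.W_const, dist_mk]
  constructor
  · generalize hM : max (dist (p x) (p y)) (max ((D.b ^ 2) ^ D.ν x) ((D.b ^ 2) ^ D.ν y)) = M
    obtain ⟨m1, m2, m3⟩ : dist (p x) (p y) ≤ M ∧ (D.b ^ 2) ^ D.ν x ≤ M ∧ (D.b ^ 2) ^ D.ν y ≤ M := by
      simpa only [max_le_iff] using hM.le
    have h5 := D.W_five (fun _ => x) (p x).1 (p y).1 fun _ => y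
    rw [D.W_comm (p y).1] at h5
    have h6 := max_le (c := 2 * M) (h1.trans (by linarith))
      (max_le ((D.le_dist (p x) (p y)).trans (by linarith)) (h2.trans (by linarith)))
    linarith
  · refine max_le ?_ (max_le (by linarith) (by linarith))
    have h5 := D.W_five (p x).1 (fun _ => x) (fun _ => y) (p y).1
    rw [D.W_comm (p x).1 fun _ => x] at h5
    have h6 := max_le (c := 2 * D.W (fun _ => x) fun _ => y) (h1.trans (by linarith))
      (max_le (a := D.W (fun _ => x) fun _ => y) (by linarith) (h2.trans (by linarith)))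
    linarith [D.dist_le (p x) (p y)]

theorem exists_gp_o (hp : ∀ y, D.b ^ D.c * D.W (fun _ => y) (p y).1 ≤ (D.b ^ 2) ^ D.ν y)
    (hs : Nonempty (D.Z ≃ₜ S2)) : Nonempty (GP G D.Z) := by
  have q0 : ∀ n : ℕ, 0 ≤ (D.b ^ 2) ^ n := fun n => by positivity
  refine ⟨⟨D.ν, fun y => SeparationQuotient.mk (p y), D.b ^ 2, 128, D.wn, pow_pos D.b0 2,
    pow_lt_one₀ D.b0.le D.b1 two_ne_zero, by norm_num, fun g ξ ζ => ?_, fun g x ξ => ?_,
    fun x y => ?_, fun k ξ => ?_, hs⟩⟩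
  · obtain ⟨a, rfl⟩ := surjective_mk ξ
    obtain ⟨a', rfl⟩ := surjective_mk ζ
    have h1 := (D.dist_cmp (g • a) (g • a')).mul_o
      ((D.P_cmp hp g⁻¹ a).mul_o (D.P_cmp hp g⁻¹ a') (by norm_num) (D.P_nonneg _ _ _)
        (D.W_nonneg _ _) (D.P_nonneg _ _ _) (D.W_nonneg _ _)) (by norm_num) dist_nonneg
      (D.W_nonneg _ _) (mul_nonneg (D.P_nonneg _ _ _) (D.P_nonneg _ _ _))
      (mul_nonneg (D.W_nonneg _ _) (D.W_nonneg _ _))
    rw [smul_val, smul_val, D.W_coc] at h1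
    exact (h1.trans_o ((D.dist_cmp a a').symm_o.left_o (q0 _)) (by norm_num) (by norm_num)).mono_o
      (by norm_num) (mul_nonneg dist_nonneg (mul_nonneg (D.P_nonneg _ _ _) (D.P_nonneg _ _ _)))
      (mul_nonneg (q0 _) dist_nonneg)
  · obtain ⟨a, rfl⟩ := surjective_mk ξ
    have h1 := (D.P_cmp hp (g * x) (g • a)).mul_o
      ((D.gp_cmp x g⁻¹).mul_o (D.P_cmp hp g⁻¹ a) (by norm_num) (q0 _)
        (D.w_pos _ _).le (D.P_nonneg _ _ _) (D.W_nonneg _ _)) (by norm_num) (D.P_nonneg _ _ _)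
      (D.W_nonneg _ _) (mul_nonneg (q0 _) (D.P_nonneg _ _ _))
      (mul_nonneg (D.w_pos _ _).le (D.W_nonneg _ _))
    rw [smul_val, ← D.W_const, D.W_comm (fun _ => x), D.W_coc g (fun _ => x)] at h1
    exact (h1.trans_o ((D.P_cmp hp x a).symm_o.left_o (q0 _)) (by norm_num) (by norm_num)).mono_o
      (by norm_num) (mul_nonneg (D.P_nonneg _ _ _) (mul_nonneg (q0 _) (D.P_nonneg _ _ _)))
      (mul_nonneg (q0 _) (D.P_nonneg _ _ _))
  · exact ((D.gp_cmp x y).trans_o (D.m3_cmp hp x y) (by norm_num) (by norm_num)).mono_o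
      (by norm_num) (q0 _) (le_max_of_le_left dist_nonneg)
  · obtain ⟨a, rfl⟩ := surjective_mk ξ
    obtain ⟨r, hr, h⟩ := D.exists_ray a
    refine ⟨r k, hr.norm k, ?_⟩
    rw [(D.mk_eq (a := a) (a' := ⟨r, D.W_ray hr⟩)).2 h, dist_comm]
    have h1 := (le_max_left _ _).trans (D.P_cmp hp (r k) ⟨r, D.W_ray hr⟩).1
    have h2 : D.W (fun _ => r k) r ≤ D.b ^ (2 * k) :=
      D.W_le ((UF_ge k).mono fun n hn => (hr.tp_eq hn).ge)
    rw [pow_mul] at h2
    have h3 := q0 k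
    simp only at h1
    linarith

end OD

theorem exists_gp {G : Type} [Group G] (S : Finset G) (hS : Subgroup.closure (S : Set G) = ⊤)
    (δ : ℕ) (hδ : ThinTriangles (SimpleGraph.mulCayley (S : Set G)) δ)
    (hb : Nonempty (Boundary (SimpleGraph.mulCayley (S : Set G)) 1 ≃ₜ S2)) :
    ∃ (Z : Type) (_ : MetricSpace Z) (_ : CompactSpace Z) (_ : MulAction G Z)
      (_ : ContinuousConstSMul G Z), Nonempty (GP G Z) := by
  obtain ⟨ν, h, e⟩ := exists_wn_cay S hS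
  rw [e] at hδ hb
  obtain ⟨D, rfl⟩ := exists_od h (c := 6 * δ + 2) (by omega) (four_of_thin h hδ)
  obtain ⟨φ⟩ := hb
  have := φ.symm.compactSpace
  obtain ⟨ψ⟩ := D.exists_homeo
  obtain ⟨x, hx⟩ := NormedSpace.sphere_nonempty (E := EuclideanSpace ℝ (Fin 3)) (x := 0)
    (r := 1) |>.2 zero_le_one
  obtain ⟨r⟩ := φ.symm ⟨x, hx⟩
  choose p hp using D.exists_pi (isRay_of_ray D.wn r)
  exact ⟨D.Z, inferInstance, ψ.compactSpace, inferInstance, inferInstance,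
    D.exists_gp_o hp ⟨ψ.symm.trans φ⟩⟩

end Vale.Agent.P198
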