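import Vale.Agent.P198.O.Ker

/-! # P198 O/Ray: geodesic rays, the boundary as a separation quotient, the projection -/

namespace Vale.Agent.P198
open Set Filter Topology SimpleGraph
open Vale.Agent.P187
variable {G : Type} [Group G] {ν : G → ℕ}

/-- A geodesic ray from `1`. -/
def IsRay (ν : G → ℕ) (r : ℕ → G) : Prop := r 0 = 1 ∧ ∀ i j, i ≤ j → ν ((r i)⁻¹ * r j) = j - i

theorem IsRay.norm {r : ℕ → G} (hr : IsRay ν r) (i : ℕ) : ν (r i) = i := by
  simpa [hr.1] using hr.2 0 i (Nat.zero_le _)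

theorem IsRay.tp_eq {r : ℕ → G} (hr : IsRay ν r) {i j : ℕ} (h : i ≤ j) :
    tp ν (r i) (r j) = 2 * i := by
  rw [tp, hr.norm, hr.norm, hr.2 i j h]; omega

theorem IsRay.mono (h : IsWN ν) {r : ℕ → G} (hr : IsRay ν r) (y : G) {i j : ℕ} (hij : i ≤ j) :
    tp ν y (r i) ≤ tp ν y (r j) := by
  have h1 := h.tri y (r i) (r j)
  rw [hr.2 i j hij] at h1
  rw [tp, tp, hr.norm, hr.norm]; omega

theorem isRay_of_ray (h : IsWN ν) (r : Ray (mulCayley {g | ν g = 1}) 1) : IsRay ν r.1 :=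
  ⟨r.2.1, fun i j hij => by rw [← dist_cay h, r.2.2 i j hij]⟩

theorem UF_ge (k : ℕ) : ∀ᶠ n in UF, k ≤ n := UF_le (eventually_ge_atTop k)

namespace OD
variable (D : OD G)

theorem W_ray {r : ℕ → G} (hr : IsRay D.ν r) : D.W r r = 0 :=
  D.W_zero fun k => (UF_ge k).mono fun n hn => by rw [hr.tp_eq le_rfl]; omega

theorem W_ray_le {r s : ℕ → G} (hr : IsRay D.ν r) (hs : IsRay D.ν s) {k : ℕ} (h : r k = s k) :
    D.W r s ≤ D.b ^ (2 * k) :=
  D.W_le <| (UF_ge k).mono fun n hn => by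
    have := hs.mono D.wn (r n) hn
    rwa [← h, tp_comm D.wn, hr.tp_eq hn] at this

theorem exists_ray (a : D.A) : ∃ r, IsRay D.ν r ∧ D.W a.1 r = 0 := by
  have h := D.wn
  choose p p0 p1 hp using fun n => exists_geo h 1 (a.1 n)
  simp only [inv_one, one_mul] at p1 hp
  have hL : ∀ k, ∀ᶠ n in UF, k ≤ D.ν (a.1 n) := fun k =>
    (D.of_W_zero a.2 (2 * k)).mono fun n hn => by rw [tp_self h] at hn; omega
  have hn : ∀ n k, k ≤ D.ν (a.1 n) → D.ν (p n k) = k := fun n k hk => by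
    simpa [p0] using hp n 0 k (Nat.zero_le _) hk
  have hr : ∀ k, ∃ x, ∀ᶠ n in UF, p n k = x := fun k => by
    obtain ⟨x, -, hx⟩ := Ultrafilter.eq_pure_of_finite_mem
      (f := (hyperfilter ℕ).map fun n => p n k) (h.fin k)
      (Filter.mem_map.2 ((hL k).mono fun n hk => (hn n k hk).le))
    refine ⟨x, ?_⟩
    have : ({x} : Set G) ∈ (hyperfilter ℕ).map fun n => p n k := by
      rw [hx]; simp
    exact this
  choose r hr using hr
  have ray : IsRay D.ν r := by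
    refine ⟨?_, fun i j hij => ?_⟩
    · obtain ⟨n, e⟩ := (hr 0).exists
      rw [← e, p0]
    · obtain ⟨n, ⟨e1, e2⟩, e3⟩ := (((hr i).and (hr j)).and (hL j)).exists
      rw [← e1, ← e2, hp n i j hij e3]
  refine ⟨r, ray, D.W_zero fun k => ?_⟩
  filter_upwards [hr k, hL k, UF_ge k] with n e1 e2 e3
  refine le_trans ?_ (ray.mono h (a.1 n) e3)
  have h1 := hp n k _ e2 le_rfl
  rw [p1, h.symm, e1] at h1
  rw [tp, h1, ray.norm]
  omega

theorem W_of_asym {r s : Ray (mulCayley {g | D.ν g = 1}) 1} (h : Asymptotic _ 1 r s) :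
    D.W r.1 s.1 = 0 := by
  obtain ⟨C, hC, -⟩ := h
  have hr := isRay_of_ray D.wn r
  have hs := isRay_of_ray D.wn s
  refine D.W_zero fun k => (UF_ge (k + C)).mono fun n hn => ?_
  obtain ⟨j, hj⟩ := hC n
  rw [dist_cay D.wn] at hj
  have h1 := tp_tri D.wn (r.1 n) (s.1 j)
  have h2 := D.wn.tri (r.1 n) (s.1 j) (s.1 n)
  have h3 : D.ν ((s.1 j)⁻¹ * s.1 n) = (n - j) + (j - n) := by
    rcases le_total j n with e | e
    · rw [hs.2 j n e]; omega
    · rw [D.wn.symm, hs.2 n j e]; omega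
  rw [hr.norm, hs.norm] at h1
  rw [tp, hr.norm, hs.norm]
  omega

theorem asym_of_W {r s : Ray (mulCayley {g | D.ν g = 1}) 1} (h : D.W r.1 s.1 = 0) :
    Asymptotic _ 1 r s := by
  have hr := isRay_of_ray D.wn r
  have hs := isRay_of_ray D.wn s
  have key : ∀ k, (mulCayley {g | D.ν g = 1}).dist (r.1 k) (s.1 k) ≤ 2 * D.c := fun k => by
    obtain ⟨n, e1, e2⟩ := ((D.of_W_zero h (2 * k)).and (UF_ge k)).exists
    have f1 := D.four (r.1 k) (r.1 n) (s.1 k)
    have f2 := D.four (r.1 n) (s.1 n) (s.1 k)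
    rw [hr.tp_eq e2] at f1
    rw [tp_comm D.wn (s.1 n), hs.tp_eq e2] at f2
    have f3 : 2 * k ≤ tp D.ν (r.1 k) (s.1 k) + 2 * D.c := by omega
    have f4 := (tp_tri D.wn (r.1 k) (s.1 k)).1
    rw [tp] at f3
    rw [hr.norm, hs.norm] at f3 f4
    rw [dist_cay D.wn]
    omega
  exact ⟨2 * D.c, fun i => ⟨i, key i⟩, fun i => ⟨i, key i⟩⟩

/-- The boundary. -/
abbrev Z : Type := SeparationQuotient D.A

theorem mk_eq {a a' : D.A} :
    SeparationQuotient.mk a = SeparationQuotient.mk a' ↔ D.W a.1 a'.1 = 0 := by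
  rw [← dist_eq_zero, SeparationQuotient.dist_mk]
  have h1 := D.dist_le a a'
  have h2 := D.le_dist a a'
  have h3 := D.W_nonneg a.1 a'.1
  have h4 := dist_nonneg (x := a) (y := a')
  constructor <;> intro h <;> linarith

/-- The class of a ray. -/
noncomputable def cls (r : Ray (mulCayley {g | D.ν g = 1}) 1) : D.Z :=
  SeparationQuotient.mk ⟨r.1, D.W_ray (isRay_of_ray D.wn r)⟩

theorem cls_eq {r s : Ray (mulCayley {g | D.ν g = 1}) 1} :
    D.cls r = D.cls s ↔ D.W r.1 s.1 = 0 :=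
  D.mk_eq (a := ⟨r.1, D.W_ray (isRay_of_ray D.wn r)⟩) (a' := ⟨s.1, D.W_ray (isRay_of_ray D.wn s)⟩)

theorem continuous_cls : Continuous D.cls := by
  let _ : TopologicalSpace G := ⊥
  have : DiscreteTopology G := ⟨rfl⟩
  refine continuous_iff_continuousAt.2 fun r => Metric.tendsto_nhds.2 fun ε hε => ?_
  obtain ⟨k, hk⟩ := exists_pow_lt_of_lt_one hε D.b1
  have hc : Continuous fun s : Ray (mulCayley {g | D.ν g = 1}) 1 => s.1 k :=
    (continuous_apply k).comp continuous_induced_dom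
  filter_upwards [((isOpen_discrete {r.1 k}).preimage hc).mem_nhds rfl] with s hs
  rw [cls, cls, SeparationQuotient.dist_mk]
  refine (D.dist_le _ _).trans_lt (lt_of_le_of_lt ?_ hk)
  exact (D.W_ray_le (isRay_of_ray D.wn s) (isRay_of_ray D.wn r) hs).trans
    (pow_le_pow_of_le_one D.b0.le D.b1.le (by omega))

theorem exists_homeo [CompactSpace (Boundary (mulCayley {g | D.ν g = 1}) 1)] :
    Nonempty (Boundary (mulCayley {g | D.ν g = 1}) 1 ≃ₜ D.Z) := by
  let f : Boundary (mulCayley {g | D.ν g = 1}) 1 → D.Z :=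
    Quot.lift D.cls fun _ _ h => D.cls_eq.2 (D.W_of_asym h)
  have hf : Continuous f := continuous_quot_lift _ D.continuous_cls
  have hb : Function.Bijective f := by
    constructor
    · rintro ⟨r⟩ ⟨s⟩ h
      have h' : D.cls r = D.cls s := h
      exact Quot.sound (D.asym_of_W (D.cls_eq.1 h'))
    · intro ξ
      obtain ⟨a, rfl⟩ := SeparationQuotient.surjective_mk ξ
      obtain ⟨r, hr, h⟩ := D.exists_ray a
      refine ⟨Quot.mk _ ⟨r, hr.1, fun i j hij => by rw [dist_cay D.wn, hr.2 i j hij]⟩, ?_⟩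
      exact (D.mk_eq (a := ⟨r, D.W_ray hr⟩) (a' := a)).2 (by rwa [D.W_comm])
  exact ⟨Continuous.homeoOfEquivCompactToT2 (f := Equiv.ofBijective f hb) hf⟩

theorem exists_far {r : ℕ → G} (hr : IsRay D.ν r) (y : G) (N : ℕ) :
    ∃ u, 2 * D.ν y ≤ tp D.ν y u + D.c ∧ N ≤ D.ν u + D.c := by
  have h := D.wn
  have key : ∀ v, D.ν v = N → tp D.ν v y⁻¹ ≤ D.c →
      ∃ u, 2 * D.ν y ≤ tp D.ν y u + D.c ∧ N ≤ D.ν u + D.c := fun v hv ht => by
    have e : D.ν (v⁻¹ * y⁻¹) = D.ν (y * v) := by rw [← mul_inv_rev, h.inv]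
    have h1 := tp_tri h y (y * v)
    rw [inv_mul_cancel_left, hv] at h1
    rw [tp, e, h.inv, hv] at ht
    refine ⟨y * v, ?_, by omega⟩
    rw [tp, inv_mul_cancel_left, hv]
    omega
  have f := D.four (r N)⁻¹ y⁻¹ ((r N)⁻¹ * r (2 * N))
  have n1 : D.ν (r N)⁻¹ = N := by rw [h.inv, hr.norm]
  have n2 : D.ν ((r N)⁻¹ * r (2 * N)) = N := by rw [hr.2 _ _ (by omega)]; omega
  have t0 : tp D.ν (r N)⁻¹ ((r N)⁻¹ * r (2 * N)) = 0 := by
    rw [tp, n1, n2, inv_inv, mul_inv_cancel_left, hr.norm]; omega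
  rw [t0, zero_add] at f
  rcases min_le_iff.1 f with f | f
  · exact key _ n1 f
  · exact key _ n2 (by rwa [tp_comm h])

theorem exists_pi {r : ℕ → G} (hr : IsRay D.ν r) (y : G) :
    ∃ a : D.A, D.b ^ D.c * D.W (fun _ => y) a.1 ≤ (D.b ^ 2) ^ D.ν y := by
  choose u h1 h2 using D.exists_far hr y
  refine ⟨⟨u, D.W_zero fun k => (UF_ge (k + D.c)).mono fun n hn => ?_⟩, ?_⟩
  · have := h2 n
    rw [tp_self D.wn]
    omega
  · refine le_of_tendsto' ((D.tendsto_W _ _).const_mul _) fun n => ?_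
    rw [w, ← pow_add, ← pow_mul, add_comm]
    exact pow_le_pow_of_le_one D.b0.le D.b1.le (h1 n)

end OD

end Vale.Agent.P198
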